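import Mathlib

/-!
P181, the canonical map modulo the prime `b + 1`: coefficient arrays of highest weight vectors of
the kernel, over an arbitrary commutative ring.
-/

set_option autoImplicit false

namespace Vale.Agent.P181.ModP

/-- Cells: `(row, position)`. -/
abbrev Cell (a b : ℕ) : Type := Fin a × Fin b

/-- Labellings of the cells by `n` letters. -/
abbrev Lab (a b n : ℕ) : Type := Cell a b → Fin n

/-- Cells with letter `l`. -/
def cells {a b n : ℕ} (w : Lab a b n) (l : Fin n) : Finset (Cell a b) :=
  Finset.univ.filter (fun x => w x = l)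

/-- Change the letter of all cells of `T` to `l`. -/
def relab {a b n : ℕ} (w : Lab a b n) (T : Finset (Cell a b)) (l : Fin n) : Lab a b n :=
  fun x => if x ∈ T then l else w x

/-- The letter `l` occurs `lam l` times. -/
def Wt {a b n : ℕ} (lam : Fin n → ℕ) (w : Lab a b n) : Prop := ∀ l, (cells w l).card = lam l

/-- The linear conditions on the coefficients of a highest weight vector of weight `lam` in the
kernel of the canonical map `Sym^a(Sym^b V) → Sym^b(Sym^a V)`; they have integer coefficients. -/
structure Sol {R : Type*} [CommRing R] {a b n : ℕ} (lam : Fin n → ℕ) (c : Lab a b n → R) :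
    Prop where
  pos : ∀ (w : Lab a b n) (π : Fin a → Equiv.Perm (Fin b)), c (fun x => w (x.1, π x.1 x.2)) = c w
  row : ∀ (w : Lab a b n) (σ : Equiv.Perm (Fin a)), c (fun x => w (σ x.1, x.2)) = c w
  wt : ∀ w : Lab a b n, ¬ Wt lam w → c w = 0
  shear : ∀ i l : Fin n, i < l → ∀ w : Lab a b n, ∀ s : ℕ, 0 < s →
    ∑ T ∈ (cells w i).powersetCard s, c (relab w T l) = 0
  ker : ∀ v : Fin b → Fin a → Fin n,
    ∑ σ : Fin b → Equiv.Perm (Fin a), c (fun x => v x.2 (σ x.2 x.1)) = 0

end Vale.Agent.P181.ModP
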