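import Vale.Agent.P181.R2.H24.RowE
import Vale.Agent.P181.R2.H649.Transfer
import Vale.Agent.P181.R2.H240.RowB
import Vale.Agent.P181.R2.H397.GenR
import Vale.Agent.P181.R2.H397.Prop
import Vale.Agent.P181.H421.Defs
import Vale.Agent.P181.H536.HW

/-!
The mod p theorem: partitions whose middle rows are all equal to `p - 1`.

The pieces: `H24.RowR`, `H24.RowE` (the relations and their only solution mod p), `H397.RowD`,
`H397.GenR` (zero from the two largest letters; primes larger than `b + 1`), `H240.RowB` (the array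
of a highest weight vector in the kernel), `H649.Transfer` (from `ℂ` to `ZMod p`), `H397.Prop`
(second argument larger than `p - 1`).
-/

set_option autoImplicit false

namespace Vale.Agent.P181.ModP

open Vale.Agent.P181 Vale.Agent.P181.H421 Vale.Agent.P181.H280

variable {a b n : ℕ}

/-- **Injectivity.** Let `p = d + 1` be a prime larger than `a` and `b`. The canonical map has no
highest weight vector of weight `(λ_1, d, …, d, λ_a, 0, …, 0)` in its kernel. -/
theorem injOn_mid {d : ℕ} (ha : 1 ≤ a) (hn : a ≤ n) (hp : (d + 1).Prime) (hbd : b ≤ d)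
    (had : a ≤ d) (lam : Fin n → ℕ)
    (hmid : ∀ i : Fin n, (i : ℕ) ≠ 0 → (i : ℕ) + 1 < a → lam i = d)
    (hend : ∀ i : Fin n, a ≤ (i : ℕ) → lam i = 0)
    (x : Pleth a b n) (hx : x ∈ hwSpace lam (plethAct a b n))
    (h0 : foulkesHowe a b (Fin n → ℂ) x = 0) : x = 0 := by
  have : Fact (d + 1).Prime := ⟨hp⟩
  by_contra hx0
  obtain ⟨c, hc, hc0⟩ := sol_of_hw lam x hx h0 hx0
  obtain ⟨c', hc', hc0'⟩ := transfer (d + 1) c hc hc0
  exact hc0' (Gen.eq_zero_of_sol ha hn (d + 1) rfl hbd had lam hmid hend c' hc')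

/-- The multiplicity inequality for `b ≤ d`. -/
theorem plethMult_mid_le {d : ℕ} (ha : 1 ≤ a) (hn : a ≤ n) (hp : (d + 1).Prime) (hbd : b ≤ d)
    (had : a ≤ d) (lam : Fin n → ℕ)
    (hmid : ∀ i : Fin n, (i : ℕ) ≠ 0 → (i : ℕ) + 1 < a → lam i = d)
    (hend : ∀ i : Fin n, a ≤ (i : ℕ) → lam i = 0) :
    plethMult a b n lam ≤ plethMult b a n lam :=
  finrank_le_of_inj (foulkesHowe a b (Fin n → ℂ)) _ _
    (fun x hx => H536.foulkesHowe_hwSpace lam x hx)
    (fun x hx h0 => injOn_mid ha hn hp hbd had lam hmid hend x hx h0)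

/-- The multiplicity inequality for every `b`, when the last row is at most `d` too. -/
theorem plethMult_mid {d : ℕ} (ha : 1 ≤ a) (hn : a ≤ n) (hp : (d + 1).Prime) (had : a ≤ d)
    (lam : Fin n → ℕ)
    (hmid : ∀ i : Fin n, (i : ℕ) ≠ 0 → (i : ℕ) + 1 < a → lam i = d)
    (hlast : ∀ i : Fin n, (i : ℕ) ≠ 0 → (i : ℕ) + 1 = a → lam i ≤ d)
    (hend : ∀ i : Fin n, a ≤ (i : ℕ) → lam i = 0) :
    plethMult a b n lam ≤ plethMult b a n lam := by
  rcases le_total b d with hbd | hdb
  · exact plethMult_mid_le ha hn hp hbd had lam hmid hend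
  · exact foulkes_prop_mid ha hn hdb lam hmid hlast hend
      fun mu hm he => plethMult_mid_le ha hn hp le_rfl had mu hm he

/-- The form with `n + 2` letters. -/
theorem injOn_mid' {d m : ℕ} (ha : 1 ≤ a) (hn : a ≤ m + 2) (hp : (d + 1).Prime) (hbd : b ≤ d)
    (had : a ≤ d) (lam : Fin (m + 2) → ℕ)
    (hmid : ∀ i : Fin (m + 2), 1 ≤ (i : ℕ) → (i : ℕ) + 1 < a → lam i = d)
    (hend : ∀ i : Fin (m + 2), a ≤ (i : ℕ) → lam i = 0) :
    InjOnHW (foulkesHowe a b (Fin (m + 2) → ℂ)) lam := fun x hx h0 =>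
  injOn_mid ha hn hp hbd had lam (fun i h1 h2 => hmid i (by omega) h2) hend x hx h0

end Vale.Agent.P181.ModP
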