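import Vale.Agent.P181.R2.H24.RowR4
import Vale.Agent.P181.R2.H397.RowD

/-!
Row E: the vanishing for `n ≥ a` letters.
-/

set_option autoImplicit false

namespace Vale.Agent.P181.ModP

open Finset

/-- Restriction to the first `a` letters. -/
lemma Sol.restrict {R : Type*} [CommRing R] {a b n : ℕ} (h : a ≤ n) {lam : Fin n → ℕ}
    {c : Lab a b n → R} (hc : Sol lam c) :
    Sol (fun i : Fin a => lam (Fin.castLE h i))
      (fun w : Lab a b a => c (fun x => Fin.castLE h (w x))) := by
  classical
  have hinj : Function.Injective (Fin.castLE h) := Fin.castLE_injective h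
  have hcells : ∀ (w : Lab a b a) (l : Fin a),
      cells (fun x => Fin.castLE h (w x)) (Fin.castLE h l) = cells w l := by
    intro w l
    ext x
    rw [mem_cells, mem_cells]
    exact hinj.eq_iff
  refine ⟨fun w π => hc.pos (fun x => Fin.castLE h (w x)) π,
    fun w σ => hc.row (fun x => Fin.castLE h (w x)) σ, ?_, ?_,
    fun v => hc.ker (fun i j => Fin.castLE h (v i j))⟩
  · intro w hw
    apply hc.wt
    intro h'
    apply hw
    intro l
    rw [← hcells w l]
    exact h' _
  · intro i l hil w s hs
    have h1 := hc.shear (Fin.castLE h i) (Fin.castLE h l) (by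
      rw [Fin.lt_def] at hil ⊢
      exact hil) (fun x => Fin.castLE h (w x)) s hs
    rw [hcells] at h1
    rw [← h1]
    apply Finset.sum_congr rfl
    intro T _
    congr 1
    funext x
    simp only [relab]
    split_ifs <;> rfl

/-- **The vanishing modulo `p = b + 1`.** -/
theorem eq_zero_of_sol {a b n : ℕ} (ha : 1 ≤ a) (hn : a ≤ n) (p : ℕ) [Fact p.Prime]
    (hp : b + 1 = p) (hab : a ≤ b) (lam : Fin n → ℕ)
    (hmid : ∀ i : Fin n, (i : ℕ) ≠ 0 → (i : ℕ) + 1 < a → lam i = b)
    (hend : ∀ i : Fin n, a ≤ (i : ℕ) → lam i = 0)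
    (c : Lab a b n → ZMod p) (hc : Sol lam c) : c = 0 := by
  classical
  have : NeZero a := ⟨by omega⟩
  have h1 := hc.restrict hn
  have h2 := zero_of_dep p (by omega) (fun i : Fin a => lam (Fin.castLE hn i))
    (fun w : Lab a b a => c (fun x => Fin.castLE hn (w x))) h1 (fun w w' hw hw' h =>
    dep_zero' (a := a) p hp _ (fun i hi hi' => hmid _ (fun h0 => hi (Fin.ext h0)) hi') _ h1
      w w' hw hw' h)
  funext w
  by_cases hw : Wt lam w
  · have h3 : ∀ x, (w x : ℕ) < a := by
      intro x
      by_contra hlt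
      have h4 := hw (w x)
      rw [hend _ (by omega), Finset.card_eq_zero] at h4
      have h5 : x ∈ cells w (w x) := mem_cells.2 rfl
      rw [h4] at h5
      exact absurd h5 (Finset.notMem_empty _)
    have h4 := congrFun h2 (fun x => (⟨w x, h3 x⟩ : Fin a))
    exact h4
  · exact hc.wt w hw

end Vale.Agent.P181.ModP
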