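import Vale.Agent.P181.R2.H24.RowR2

/-!
Row R: modulo `p = b + 1` the coefficients depend only on the cells with the first letter.
-/

set_option autoImplicit false

namespace Vale.Agent.P181.ModP

open Finset

variable {a b : ℕ} {R : Type*} [CommRing R]

/-- Exchange of two letters. -/
def exch (i l : Fin a) (w : Lab a b a) : Lab a b a := fun x => Equiv.swap i l (w x)

lemma exch_lt_iff {i l : Fin a} {m : ℕ} (hi : m ≤ (i : ℕ)) (hl : m ≤ (l : ℕ)) (w : Lab a b a)
    (x : Cell a b) : (exch i l w x : ℕ) < m ↔ (w x : ℕ) < m := by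
  rw [exch]
  by_cases h1 : w x = i
  · rw [h1, Equiv.swap_apply_left]
    omega
  · by_cases h2 : w x = l
    · rw [h2, Equiv.swap_apply_right]
      omega
    · rw [Equiv.swap_apply_of_ne_of_ne h1 h2]

lemma exch_eq_of_lt {i l : Fin a} {m : ℕ} (hi : m ≤ (i : ℕ)) (hl : m ≤ (l : ℕ)) (w : Lab a b a)
    (x : Cell a b) (h : (w x : ℕ) < m) : exch i l w x = w x := by
  rw [exch, Equiv.swap_apply_of_ne_of_ne]
  · rintro rfl
    omega
  · rintro rfl
    omega

lemma Wt.exch {lam : Fin a → ℕ} {w : Lab a b a} (hw : Wt lam w) {i l : Fin a}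
    (h : lam i = lam l) : Wt lam (exch i l w) := by
  intro m
  have h1 : cells (ModP.exch i l w) m = cells w (Equiv.swap i l m) := by
    ext x
    rw [mem_cells, mem_cells, ModP.exch]
    constructor
    · rintro rfl
      rw [Equiv.swap_apply_self]
    · intro h'
      rw [h', Equiv.swap_apply_self]
  rw [h1, hw]
  by_cases h2 : m = i
  · rw [h2, Equiv.swap_apply_left, h]
  · by_cases h3 : m = l
    · rw [h3, Equiv.swap_apply_right, h]
    · rw [Equiv.swap_apply_of_ne_of_ne h2 h3]

omit [CommRing R] in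
/-- Swap invariance from `QQ i` and the exchange of the letters `i`, `i + 1`. -/
lemma swap_inv {lam : Fin a → ℕ} {c : Lab a b a → R} {i : ℕ} (hi : i + 2 < a)
    (hlast : 1 ≤ lam ⟨a - 1, by omega⟩)
    (heq : lam ⟨i, by omega⟩ = lam ⟨i + 1, by omega⟩)
    (hex : ∀ w : Lab a b a, Wt lam w → c (exch ⟨i, by omega⟩ ⟨i + 1, by omega⟩ w) = c w)
    (hQ : QQ lam c i) (w : Lab a b a) (hw : Wt lam w) (hcl : Cls i w) (x y : Cell a b)
    (hx : i ≤ (w x : ℕ)) (hy : i ≤ (w y : ℕ)) : c (sw w x y) = c w := by
  classical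
  have hrow : ∀ v : Lab a b a, Cls i v → ∀ z : Cell a b, i ≤ (v z : ℕ) → i ≤ (z.1 : ℕ) := by
    intro v hv z hz
    by_contra hlt
    have := hv z (by omega)
    omega
  have hsame : ∀ v : Lab a b a, ∀ x y : Cell a b, i ≤ (v x : ℕ) → i ≤ (v y : ℕ) →
      Same i (sw v x y) v := by
    intro v x y hx hy z hz
    by_cases hzx : z = x
    · subst hzx
      rw [sw_left] at hz
      omega
    · by_cases hzy : z = y
      · subst hzy
        rw [sw_right] at hz
        omega
      · rw [sw_other v hzx hzy]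
  -- both letters different from `i`
  have s1 : ∀ v : Lab a b a, Wt lam v → Cls i v → ∀ x y : Cell a b, i ≤ (v x : ℕ) →
      i ≤ (v y : ℕ) → (v x : ℕ) ≠ i → (v y : ℕ) ≠ i → c (sw v x y) = c v := by
    intro v hv hcv x y hx hy hxi hyi
    apply hQ _ _ (hv.sw x y) hv (hcv.sw (hrow v hcv x hx) (hrow v hcv y hy)) hcv
      (hsame v x y hx hy)
    intro z
    by_cases hzx : z = x
    · subst hzx
      rw [sw_left]
      exact ⟨fun h => absurd h hyi, fun h => absurd h hxi⟩
    · by_cases hzy : z = y
      · subst hzy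
        rw [sw_right]
        exact ⟨fun h => absurd h hxi, fun h => absurd h hyi⟩
      · rw [sw_other v hzx hzy]
  -- both letters different from `i + 1`
  have s2 : ∀ v : Lab a b a, Wt lam v → Cls i v → ∀ x y : Cell a b, i ≤ (v x : ℕ) →
      i ≤ (v y : ℕ) → (v x : ℕ) ≠ i + 1 → (v y : ℕ) ≠ i + 1 → c (sw v x y) = c v := by
    intro v hv hcv x y hx hy hxi hyi
    set e := exch (a := a) (b := b) ⟨i, by omega⟩ ⟨i + 1, by omega⟩ with he
    have h1 : sw (e v) x y = e (sw v x y) := rfl
    have h2 : ∀ z, i ≤ (v z : ℕ) → (v z : ℕ) ≠ i + 1 → i ≤ (e v z : ℕ) ∧ (e v z : ℕ) ≠ i := by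
      intro z hz1 hz2
      rw [he, exch]
      by_cases h3 : v z = ⟨i, by omega⟩
      · rw [h3, Equiv.swap_apply_left]
        exact ⟨Nat.le_succ i, Nat.succ_ne_self i⟩
      · have h4 : v z ≠ ⟨i + 1, by omega⟩ := fun h => hz2 (by rw [h])
        rw [Equiv.swap_apply_of_ne_of_ne h3 h4]
        exact ⟨hz1, fun h => h3 (Fin.ext h)⟩
    have h3 := s1 (e v) (hv.exch heq) (fun z hz =>
      (exch_lt_iff (m := i) (le_refl i) (Nat.le_succ i) v z).2 (hcv z hz)) x y
      (h2 x hx hxi).1 (h2 y hy hyi).1 (h2 x hx hxi).2 (h2 y hy hyi).2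
    rw [h1, he, hex _ (hv.sw x y), hex _ hv] at h3
    exact h3
  by_cases c1 : (w x : ℕ) ≠ i ∧ (w y : ℕ) ≠ i
  · exact s1 w hw hcl x y hx hy c1.1 c1.2
  by_cases c2 : (w x : ℕ) ≠ i + 1 ∧ (w y : ℕ) ≠ i + 1
  · exact s2 w hw hcl x y hx hy c2.1 c2.2
  -- a cell with the last letter
  obtain ⟨z, hz⟩ : ∃ z, w z = ⟨a - 1, by omega⟩ := by
    have h1 : 0 < (cells w ⟨a - 1, by omega⟩).card := by
      rw [hw]
      omega
    obtain ⟨z, hz⟩ := Finset.card_pos.1 h1
    exact ⟨z, mem_cells.1 hz⟩
  have hz' : (w z : ℕ) = a - 1 := by rw [hz]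
  have key : ∀ x y : Cell a b, (w x : ℕ) = i → (w y : ℕ) = i + 1 → c (sw w x y) = c w := by
    intro x y hx hy
    have hzx : z ≠ x := by
      rintro rfl
      omega
    have hzy : z ≠ y := by
      rintro rfl
      omega
    have hxy : x ≠ y := by
      rintro rfl
      omega
    have e1 := s2 w hw hcl x z (by omega) (by omega) (by omega) (by omega)
    have hw1 := hw.sw x z
    have hc1 : Cls i (sw w x z) := hcl.sw (hrow w hcl x (by omega)) (hrow w hcl z (by omega))
    have v1x : (sw w x z x : ℕ) = a - 1 := by rw [sw_left, hz']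
    have v1y : (sw w x z y : ℕ) = i + 1 := by rw [sw_other w hxy.symm hzy.symm, hy]
    have v1z : (sw w x z z : ℕ) = i := by rw [sw_right, hx]
    have e2 := s1 (sw w x z) hw1 hc1 x y (by omega) (by omega) (by omega) (by omega)
    have hw2 := hw1.sw x y
    have hc2 : Cls i (sw (sw w x z) x y) :=
      hc1.sw (hrow w hcl x (by omega)) (hrow w hcl y (by omega))
    have v2y : (sw (sw w x z) x y y : ℕ) = a - 1 := by rw [sw_right, v1x]
    have v2z : (sw (sw w x z) x y z : ℕ) = i := by rw [sw_other _ hzx hzy, v1z]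
    have e3 := s2 (sw (sw w x z) x y) hw2 hc2 y z (by omega) (by omega) (by omega) (by omega)
    have e4 : sw (sw (sw w x z) x y) y z = sw w x y := by
      funext t
      by_cases htx : t = x
      · subst htx
        rw [sw_other _ hxy hzx.symm, sw_left, sw_other _ hxy.symm hzy.symm, sw_left]
      · by_cases hty : t = y
        · subst hty
          rw [sw_left, sw_other _ hzx hzy, sw_right, sw_right]
        · by_cases htz : t = z
          · subst htz
            rw [sw_right, sw_right, sw_left, sw_other w htx hty]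
          · rw [sw_other _ hty htz, sw_other _ htx hty, sw_other _ htx htz,
              sw_other _ htx hty]
    rw [← e4, e3, e2, e1]
  by_cases c3 : (w x : ℕ) = i
  · by_cases c4 : (w y : ℕ) = i + 1
    · exact key x y c3 c4
    · exfalso
      apply c2
      exact ⟨by omega, c4⟩
  · by_cases c4 : (w x : ℕ) = i + 1
    · have c5 : (w y : ℕ) = i := by
        by_contra h
        exact c1 ⟨c3, h⟩
      have h1 : sw w x y = sw w y x := by
        funext t
        rw [sw, sw, Equiv.swap_comm]
      rw [h1]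
      exact key y x c5 c4
    · exfalso
      by_cases c5 : (w y : ℕ) = i
      · exact c2 ⟨c4, by omega⟩
      · exact c1 ⟨c3, c5⟩

/-- Swap invariance for the last two letters. -/
lemma swap_inv_last {lam : Fin a → ℕ} {c : Lab a b a → R} (hc : Sol lam c)
    (hu : ∀ N : ℕ, N < b → ∀ r : R, (1 + (N : R)) * r = 0 → r = 0) (hb : (b : R) + 1 = 0)
    {i : ℕ} (hi : i + 2 = a) (hlam : lam ⟨i, by omega⟩ = b)
    (w : Lab a b a) (hw : Wt lam w) (hcl : Cls i w) (x y : Cell a b)
    (hx : i ≤ (w x : ℕ)) (hy : i ≤ (w y : ℕ)) : c (sw w x y) = c w := by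
  classical
  have hrow : ∀ v : Lab a b a, Cls i v → ∀ z : Cell a b, i ≤ (v z : ℕ) → i ≤ (z.1 : ℕ) := by
    intro v hv z hz
    by_contra hlt
    have := hv z (by omega)
    omega
  by_cases hxy : w x = w y
  · have h1 : sw w x y = w := by
      funext t
      by_cases htx : t = x
      · subst htx
        rw [sw_left, hxy]
      · by_cases hty : t = y
        · subst hty
          rw [sw_right, hxy]
        · rw [sw_other w htx hty]
    rw [h1]
  have hne : (w x : ℕ) ≠ (w y : ℕ) := fun h => hxy (Fin.ext h)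
  by_cases hr : x.1 = y.1
  · exact hc.swap_row w hr
  have hrne : (x.1 : ℕ) ≠ (y.1 : ℕ) := fun h => hr (Fin.ext h)
  have hxr := hrow w hcl x hx
  have hyr := hrow w hcl y hy
  have hx1 := x.1.2
  have hy1 := y.1.2
  have hwx := (w x).2
  have hwy := (w y).2
  -- the main relation: `x` has the last letter, `y` has letter `i`
  have key : ∀ v : Lab a b a, Wt lam v → Cls i v → ∀ x y : Cell a b, x.1 ≠ y.1 →
      (v x : ℕ) = i + 1 → (v y : ℕ) = i → c (sw v x y) = c v := by
    intro v hv hcv x y hxy hvx hvy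
    have hne' : (x.1 : ℕ) ≠ (y.1 : ℕ) := fun h => hxy (Fin.ext h)
    have hxr' := hrow v hcv x (by omega)
    have hyr' := hrow v hcv y (by omega)
    have hx1' := x.1.2
    have hy1' := y.1.2
    let li : Fin a := ⟨i, by omega⟩
    have hvy' : v y = li := Fin.ext hvy
    have e1 := hc.shear1 v (i := li) (x := x) (by
      rw [Fin.lt_def, hvx]
      exact Nat.lt_succ_self i)
    rw [← Finset.sum_filter_add_sum_filter_not (cells v li) (fun z => z.1 = x.1)] at e1
    have h3 : ∑ z ∈ (cells v li).filter (fun z => z.1 = x.1), c (sw v x z) =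
        (((cells v li).filter (fun z => z.1 = x.1)).card : R) * c v := by
      rw [Finset.sum_congr rfl (fun z hz => hc.swap_row v (Finset.mem_filter.1 hz).2.symm),
        Finset.sum_const, nsmul_eq_mul]
    have h4 : ∑ z ∈ (cells v li).filter (fun z => ¬ z.1 = x.1), c (sw v x z) =
        (((cells v li).filter (fun z => ¬ z.1 = x.1)).card : R) * c (sw v x y) := by
      rw [← nsmul_eq_mul, ← Finset.sum_const]
      apply Finset.sum_congr rfl
      intro z hz
      obtain ⟨hz1, hz2⟩ := Finset.mem_filter.1 hz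
      rw [mem_cells] at hz1
      have hzi : (v z : ℕ) = i := by rw [hz1]
      have hzr := hrow v hcv z (by omega)
      have hz2' : (z.1 : ℕ) ≠ (x.1 : ℕ) := fun h => hz2 (Fin.ext h)
      have hz1' := z.1.2
      have hzy : y.1 = z.1 := by
        apply Fin.ext
        omega
      rw [← hc.swap_row (sw v x y) hzy]
      congr 1
      have hyx : y ≠ x := fun h => hxy (by rw [h])
      have hzx : z ≠ x := fun h => hz2 (by rw [h])
      funext t
      by_cases htx : t = x
      · subst htx
        rw [sw_left, sw_other _ hyx.symm hzx.symm, sw_left, hz1, hvy']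
      · by_cases htz : t = z
        · subst htz
          rw [sw_right, sw_right]
          by_cases hty : t = y
          · subst hty
            rw [sw_right]
          · rw [sw_right]
        · by_cases hty : t = y
          · subst hty
            rw [sw_other v htx htz, sw_left]
            rw [sw_other v hzx (Ne.symm htz), hz1, hvy']
          · rw [sw_other v htx htz, sw_other _ hty htz, sw_other v htx hty]
    have h5 : ((cells v li).filter (fun z => z.1 = x.1)).card +
        ((cells v li).filter (fun z => ¬ z.1 = x.1)).card = b := by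
      rw [Finset.card_filter_add_card_filter_not, hv, hlam]
    have h6 : ((cells v li).filter (fun z => z.1 = x.1)).card < b := by
      apply row_card_lt x
      · rw [Finset.mem_filter, mem_cells]
        rintro ⟨h, -⟩
        have : (v x : ℕ) = i := by rw [h]
        omega
      · intro z hz
        exact (Finset.mem_filter.1 hz).2
    rw [h3, h4] at e1
    have h7 : (((cells v li).filter (fun z => z.1 = x.1)).card : R) +
        (((cells v li).filter (fun z => ¬ z.1 = x.1)).card : R) = b := by
      rw [← Nat.cast_add, h5]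
    have h8 := hu _ h6 (c (sw v x y) - c v) (by
      linear_combination (c (sw v x y)) * h7 + c (sw v x y) * hb - e1)
    exact sub_eq_zero.1 h8
  by_cases h1 : (w x : ℕ) = i
  · have h2 : (w y : ℕ) = i + 1 := by omega
    have h3 : sw (sw w x y) x y = w := by
      funext t
      rw [sw, sw, Equiv.swap_apply_self]
    have h4 := key (sw w x y) (hw.sw x y) (hcl.sw hxr hyr) x y hr (by rw [sw_left]; exact h2)
      (by rw [sw_right]; exact h1)
    rw [h3] at h4
    exact h4.symm
  · exact key w hw hcl x y hr (by omega) (by omega)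

omit [CommRing R] in
lemma PP_last {lam : Fin a → ℕ} {c : Lab a b a → R} {i : ℕ} (hi : a ≤ i + 1) : PP lam c i := by
  intro w w' _ _ _ _ hs
  congr 1
  funext x
  by_cases h : (w x : ℕ) < i ∨ (w' x : ℕ) < i
  · exact hs x h
  · apply Fin.ext
    have h1 := (w x).2
    have h2 := (w' x).2
    omega

lemma PP_all {lam : Fin a → ℕ} {c : Lab a b a → R} (hc : Sol lam c)
    (hu : ∀ N : ℕ, N < b → ∀ r : R, (1 + (N : R)) * r = 0 → r = 0) (hb : (b : R) + 1 = 0)
    (hpow : (-1 : R) ^ b = 1)
    (hmid : ∀ i : Fin a, (i : ℕ) ≠ 0 → (i : ℕ) + 1 < a → lam i = b)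
    (hlast : ∀ i : Fin a, 1 ≤ lam i) : ∀ d i : ℕ, i + d = a → 1 ≤ i → PP lam c i := by
  intro d
  induction d with
  | zero =>
    intro i hi _
    exact PP_last (by omega)
  | succ d ih =>
    intro i hi h1
    have hP := ih (i + 1) (by omega) (by omega)
    have hQ := QQ_of_PP hc hu (i := i) (by omega) hP
    rcases Nat.lt_trichotomy (i + 2) a with h | h | h
    · have hl1 : lam ⟨i, by omega⟩ = b := hmid _ (by simp; omega) (by simp; omega)
      have hl2 : lam ⟨i + 1, by omega⟩ = b := hmid _ (by simp) (by simp; omega)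
      apply PP_of_swap
      intro w hw hcl x y hx hy
      refine swap_inv h (hlast _) (hl1.trans hl2.symm) ?_ hQ w hw hcl x y hx hy
      intro v hv
      have h2 := exchange_aux hc (i := ⟨i, by omega⟩) (l := ⟨i + 1, by omega⟩)
        (Fin.lt_def.2 (Nat.lt_succ_self i)) v b (by rw [hv, hl1]) (by rw [hv, hl2])
      rw [hpow, one_mul] at h2
      exact h2
    · have hl1 : lam ⟨i, by omega⟩ = b := hmid _ (by simp; omega) (by simp; omega)
      apply PP_of_swap
      intro w hw hcl x y hx hy
      exact swap_inv_last hc hu hb h hl1 w hw hcl x y hx hy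
    · exact PP_last (by omega)

/-- **Row R.** Modulo `p = b + 1` the coefficients depend only on the cells with the first
letter. -/
theorem dep_zero {a b : ℕ} [NeZero a] (p : ℕ) [Fact p.Prime] (hp : b + 1 = p)
    (lam : Fin a → ℕ) (hmid : ∀ i : Fin a, i ≠ 0 → (i : ℕ) + 1 < a → lam i = b)
    (hlast : ∀ i : Fin a, 1 ≤ lam i)
    (c : Lab a b a → ZMod p) (hc : Sol lam c) (w w' : Lab a b a) (hw : Wt lam w)
    (hw' : Wt lam w') (h : ∀ x, w x = 0 ↔ w' x = 0) : c w = c w' := by
  have ha : 0 < a := Nat.pos_of_ne_zero (NeZero.ne a)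
  have hu : ∀ N : ℕ, N < b → ∀ r : ZMod p, (1 + (N : ZMod p)) * r = 0 → r = 0 := by
    intro N hN r hr
    refine (mul_eq_zero.1 hr).resolve_left ?_
    intro h0
    have h1 : ((1 + N : ℕ) : ZMod p) = 0 := by push_cast; exact h0
    rw [ZMod.natCast_eq_zero_iff] at h1
    have := Nat.le_of_dvd (by omega) h1
    omega
  have hb : (b : ZMod p) + 1 = 0 := by
    have h1 : ((b + 1 : ℕ) : ZMod p) = 0 := by rw [hp]; exact ZMod.natCast_self p
    push_cast at h1
    exact h1
  have hpow : (-1 : ZMod p) ^ b = 1 := by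
    have h1 := ZMod.pow_card_sub_one_eq_one (p := p) (a := -1) (by simp)
    rw [show p - 1 = b by omega] at h1
    exact h1
  have hmid' : ∀ i : Fin a, (i : ℕ) ≠ 0 → (i : ℕ) + 1 < a → lam i = b := by
    intro i hi
    apply hmid
    rintro rfl
    exact hi rfl
  have hP : PP lam c 1 := PP_all hc hu hb hpow hmid' hlast (a - 1) 1 (by omega) le_rfl
  have hQ : QQ lam c 0 := QQ_of_PP hc hu ha hP
  refine hQ w w' hw hw' (fun x hx => absurd hx (Nat.not_lt_zero _))
    (fun x hx => absurd hx (Nat.not_lt_zero _))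
    (fun x hx => absurd hx (fun h => h.elim (Nat.not_lt_zero _) (Nat.not_lt_zero _))) ?_
  intro x
  have h1 : ∀ v : Lab a b a, (v x : ℕ) = 0 ↔ v x = 0 := by
    intro v
    constructor
    · intro h2
      apply Fin.ext
      rw [h2]
      rfl
    · intro h2
      rw [h2]
      rfl
  rw [h1, h1]
  exact h x

end Vale.Agent.P181.ModP
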