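import Vale.Agent.P181.R2.H24.Defs

/-!
Row R, first part: swapping cells, and the passage from `PP (i + 1)` to `QQ i`.
-/

set_option autoImplicit false

namespace Vale.Agent.P181.ModP

open Finset

variable {a b n : ℕ} {R : Type*} [CommRing R]

lemma mem_cells {w : Lab a b n} {l : Fin n} {x : Cell a b} : x ∈ cells w l ↔ w x = l := by
  simp [cells]

/-- Swapping two cells. -/
def sw (w : Lab a b n) (x y : Cell a b) : Lab a b n := fun z => w (Equiv.swap x y z)

lemma sw_left (w : Lab a b n) (x y : Cell a b) : sw w x y x = w y := by
  simp [sw]

lemma sw_right (w : Lab a b n) (x y : Cell a b) : sw w x y y = w x := by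
  simp [sw]

lemma sw_other (w : Lab a b n) {x y z : Cell a b} (hx : z ≠ x) (hy : z ≠ y) :
    sw w x y z = w z := by
  rw [sw, Equiv.swap_apply_of_ne_of_ne hx hy]

lemma Wt.comp {lam : Fin n → ℕ} {w : Lab a b n} (h : Wt lam w) (e : Equiv.Perm (Cell a b)) :
    Wt lam (fun z => w (e z)) := by
  intro l
  rw [← h l]
  exact Finset.card_equiv e (fun z => by rw [mem_cells, mem_cells])

lemma Wt.sw {lam : Fin n → ℕ} {w : Lab a b n} (h : Wt lam w) (x y : Cell a b) :
    Wt lam (sw w x y) := h.comp _

lemma Sol.swap_row {lam : Fin n → ℕ} {c : Lab a b n → R} (hc : Sol lam c) (w : Lab a b n)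
    {x y : Cell a b} (h : x.1 = y.1) : c (sw w x y) = c w := by
  classical
  rw [← hc.pos w (fun j => if j = x.1 then Equiv.swap x.2 y.2 else 1)]
  congr 1
  funext z
  by_cases hzx : z = x
  · subst hzx
    rw [sw_left]
    simp [h]
  · by_cases hzy : z = y
    · subst hzy
      rw [sw_right]
      simp only [h, if_true, Equiv.swap_apply_right]
      rw [← h]
    · rw [sw_other w hzx hzy]
      by_cases hz : z.1 = x.1
      · have h1 : z.2 ≠ x.2 := fun h2 => hzx (Prod.ext hz h2)
        have h2 : z.2 ≠ y.2 := fun h3 => hzy (Prod.ext (hz.trans h) h3)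
        rw [if_pos hz, Equiv.swap_apply_of_ne_of_ne h1 h2]
      · rw [if_neg hz]
        rfl

/-- The first shear relation. -/
lemma Sol.shear1 {lam : Fin n → ℕ} {c : Lab a b n → R} (hc : Sol lam c) (w : Lab a b n)
    {i : Fin n} {x : Cell a b} (h : i < w x) : c w + ∑ y ∈ cells w i, c (sw w x y) = 0 := by
  classical
  have h1 := hc.shear i (w x) h (relab w {x} i) 1 one_pos
  rw [Finset.powersetCard_one, Finset.sum_map] at h1
  have hx : x ∉ cells w i := by
    rw [mem_cells]
    exact ne_of_gt h
  have h2 : cells (relab w {x} i) i = insert x (cells w i) := by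
    ext z
    rw [mem_cells, mem_insert, mem_cells, relab]
    by_cases hz : z = x
    · simp [hz]
    · simp [hz]
  rw [h2, Finset.sum_insert hx] at h1
  rw [← h1]
  congr 1
  · congr 1
    funext z
    by_cases hz : z = x
    · subst hz
      simp [relab]
    · simp [relab, hz]
  · apply Finset.sum_congr rfl
    intro y hy
    have hyx : y ≠ x := fun h3 => hx (h3 ▸ hy)
    rw [mem_cells] at hy
    congr 1
    funext z
    by_cases hz : z = x
    · subst hz
      rw [sw_left, hy]
      simp [relab, Ne.symm hyx]
    · by_cases hz' : z = y
      · subst hz'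
        rw [sw_right]
        simp [relab]
      · rw [sw_other w hz hz']
        simp [relab, hz, hz']

/-- Rows before `i` are filled by letters before `i`. -/
def Cls (i : ℕ) (w : Lab a b a) : Prop := ∀ x : Cell a b, (x.1 : ℕ) < i → (w x : ℕ) < i

/-- The letters before `i` occupy the same cells. -/
def Same (i : ℕ) (w w' : Lab a b a) : Prop :=
  ∀ x, ((w x : ℕ) < i ∨ (w' x : ℕ) < i) → w x = w' x

/-- The value is determined by the cells of the letters before `i`. -/
def PP (lam : Fin a → ℕ) (c : Lab a b a → R) (i : ℕ) : Prop :=
  ∀ w w', Wt lam w → Wt lam w' → Cls i w → Cls i w' → Same i w w' → c w = c w'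

/-- The value is determined by the cells of the letters up to `i`. -/
def QQ (lam : Fin a → ℕ) (c : Lab a b a → R) (i : ℕ) : Prop :=
  ∀ w w', Wt lam w → Wt lam w' → Cls i w → Cls i w' → Same i w w' →
    (∀ x, (w x : ℕ) = i ↔ (w' x : ℕ) = i) → c w = c w'

lemma Same.comp {i : ℕ} {w w' : Lab a b a} (h : Same i w w') (x y : Cell a b) :
    Same i (sw w x y) (sw w' x y) := fun _ hz => h _ hz

lemma Cls.sw {i : ℕ} {w : Lab a b a} (h : Cls i w) {x y : Cell a b} (hx : i ≤ (x.1 : ℕ))
    (hy : i ≤ (y.1 : ℕ)) : Cls i (sw w x y) := by
  intro z hz
  have h1 : z ≠ x := by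
    rintro rfl
    omega
  have h2 : z ≠ y := by
    rintro rfl
    omega
  rw [sw_other w h1 h2]
  exact h z hz

lemma row_card_lt {a b : ℕ} (x : Cell a b) (C : Finset (Cell a b)) (hx : x ∉ C)
    (hC : ∀ y ∈ C, y.1 = x.1) : C.card < b := by
  classical
  have h1 : insert x C ⊆ (Finset.univ : Finset (Fin b)).map
      ⟨fun i => (x.1, i), fun i j h => (Prod.ext_iff.1 h).2⟩ := by
    intro y hy
    rw [mem_map]
    refine ⟨y.2, mem_univ _, ?_⟩
    rcases mem_insert.1 hy with rfl | hy
    · rfl
    · exact Prod.ext (hC y hy).symm rfl
  have h2 := Finset.card_le_card h1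
  rw [Finset.card_insert_of_notMem hx, Finset.card_map, Finset.card_univ, Fintype.card_fin] at h2
  omega

lemma QQ_of_PP {lam : Fin a → ℕ} {c : Lab a b a → R} (hc : Sol lam c)
    (hu : ∀ N : ℕ, N < b → ∀ r : R, (1 + (N : R)) * r = 0 → r = 0)
    {i : ℕ} (hi : i < a) (hP : PP lam c (i + 1)) : QQ lam c i := by
  classical
  have main : ∀ d : ℕ, ∀ w w' : Lab a b a,
      (Finset.univ.filter (fun x : Cell a b => (x.1 : ℕ) = i ∧ i < (w x : ℕ))).card = d →
      Wt lam w → Wt lam w' → Cls i w → Cls i w' → Same i w w' →
      (∀ x, (w x : ℕ) = i ↔ (w' x : ℕ) = i) → c w = c w' := by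
    intro d
    induction d using Nat.strong_induction_on with
    | _ d ih =>
      intro w w' hd hw hw' hcl hcl' hs hiff
      by_cases hex : ∃ x : Cell a b, (x.1 : ℕ) = i ∧ i < (w x : ℕ)
      · obtain ⟨x, hx1, hx2⟩ := hex
        have hx2' : i < (w' x : ℕ) := by
          rcases lt_trichotomy (w' x : ℕ) i with h | h | h
          · have := hs x (Or.inr h)
            rw [this] at hx2
            omega
          · have := (hiff x).2 h
            omega
          · exact h
        let li : Fin a := ⟨i, hi⟩
        have e1 := hc.shear1 w (i := li) (x := x) (by exact hx2)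
        have e2 := hc.shear1 w' (i := li) (x := x) (by exact hx2')
        have hC : cells w' li = cells w li := by
          ext y
          rw [mem_cells, mem_cells]
          constructor
          · intro h
            exact Fin.ext ((hiff y).2 (by rw [h]))
          · intro h
            exact Fin.ext ((hiff y).1 (by rw [h]))
        rw [hC] at e2
        rw [← Finset.sum_filter_add_sum_filter_not (cells w li) (fun y => y.1 = x.1)] at e1 e2
        have h3 : ∀ v : Lab a b a, ∑ y ∈ (cells w li).filter (fun y => y.1 = x.1), c (sw v x y) =
            (((cells w li).filter (fun y => y.1 = x.1)).card : R) * c v := by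
          intro v
          rw [Finset.sum_congr rfl (fun y hy => hc.swap_row v (Finset.mem_filter.1 hy).2.symm),
            Finset.sum_const, nsmul_eq_mul]
        rw [h3] at e1 e2
        have h4 : ∑ y ∈ (cells w li).filter (fun y => ¬ y.1 = x.1), c (sw w x y) =
            ∑ y ∈ (cells w li).filter (fun y => ¬ y.1 = x.1), c (sw w' x y) := by
          apply Finset.sum_congr rfl
          intro y hy
          obtain ⟨hy1, hy2⟩ := Finset.mem_filter.1 hy
          rw [mem_cells] at hy1
          have hyi : (w y : ℕ) = i := by rw [hy1]
          have hyr : i ≤ (y.1 : ℕ) := by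
            by_contra hlt
            have := hcl y (by omega)
            omega
          have hyne : (y.1 : ℕ) ≠ i := by
            intro h
            apply hy2
            apply Fin.ext
            omega
          refine ih _ ?_ (sw w x y) (sw w' x y) rfl (hw.sw x y) (hw'.sw x y)
            (hcl.sw (by omega) hyr) (hcl'.sw (by omega) hyr) (hs.comp x y) (fun _ => hiff _)
          rw [← hd]
          apply Finset.card_lt_card
          rw [Finset.ssubset_iff_of_subset]
          · refine ⟨x, by simp [hx1, hx2], ?_⟩
            rw [Finset.mem_filter]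
            rintro ⟨-, -, h⟩
            rw [sw_left] at h
            omega
          · intro z hz
            rw [Finset.mem_filter] at hz ⊢
            obtain ⟨-, hz1, hz2⟩ := hz
            have hzx : z ≠ x := by
              rintro rfl
              rw [sw_left] at hz2
              omega
            have hzy : z ≠ y := by
              rintro rfl
              exact hyne hz1
            rw [sw_other w hzx hzy] at hz2
            exact ⟨mem_univ _, hz1, hz2⟩
        rw [h4] at e1
        have h5 : ((cells w li).filter (fun y => y.1 = x.1)).card < b := by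
          apply row_card_lt x
          · rw [Finset.mem_filter, mem_cells]
            rintro ⟨h, -⟩
            have : (w x : ℕ) = i := by rw [h]
            omega
          · intro y hy
            exact (Finset.mem_filter.1 hy).2
        have h6 := hu _ h5 (c w - c w') (by linear_combination e1 - e2)
        exact sub_eq_zero.1 h6
      · push Not at hex
        have hle : ∀ x : Cell a b, (x.1 : ℕ) = i → (w x : ℕ) ≤ i := hex
        apply hP w w' hw hw'
        · intro x hx
          rcases Nat.lt_succ_iff_lt_or_eq.1 hx with h | h
          · have := hcl x h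
            omega
          · have := hle x h
            omega
        · intro x hx
          rcases Nat.lt_succ_iff_lt_or_eq.1 hx with h | h
          · have := hcl' x h
            omega
          · have h1 := hle x h
            rcases Nat.lt_or_eq_of_le h1 with h2 | h2
            · have := hs x (Or.inl h2)
              rw [← this]
              omega
            · have := (hiff x).1 h2
              omega
        · intro x hx
          have key : ∀ v v' : Lab a b a, (v x : ℕ) < i + 1 → ((v x : ℕ) = i → (v' x : ℕ) = i) →
              ((v x : ℕ) < i → v x = v' x) → v x = v' x := by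
            intro v v' h1 h2 h3
            rcases Nat.lt_succ_iff_lt_or_eq.1 h1 with h | h
            · exact h3 h
            · apply Fin.ext
              rw [h2 h, h]
          rcases hx with h | h
          · exact key w w' h (hiff x).1 (fun h' => hs x (Or.inl h'))
          · exact (key w' w h (hiff x).2 (fun h' => (hs x (Or.inr h')).symm)).symm
  intro w w' hw hw' hcl hcl' hs hiff
  exact main _ w w' rfl hw hw' hcl hcl' hs hiff

end Vale.Agent.P181.ModP
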