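import Vale.Agent.P181.R2.H24.RowR1

/-!
Row R, second part: exchanging two letters of the same weight, and the passage from `QQ i` to
`PP i`.
-/

set_option autoImplicit false

namespace Vale.Agent.P181.ModP

open Finset

variable {a b n : ℕ} {R : Type*} [CommRing R]

/-- On `A`, letter `i`; on `B` outside of `A`, letter `l`. -/
lemma exchange_aux {lam : Fin n → ℕ} {c : Lab a b n → R} (hc : Sol lam c) {i l : Fin n}
    (hil : i < l) (w : Lab a b n) (d : ℕ) (hA : (cells w i).card = d)
    (hB : (cells w l).card = d) :
    c (fun x => Equiv.swap i l (w x)) = (-1) ^ d * c w := by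
  classical
  set A := cells w i with hAdef
  set B := cells w l with hBdef
  have hAB : Disjoint A B := by
    rw [Finset.disjoint_left]
    intro x hx hx'
    rw [hAdef, mem_cells] at hx
    rw [hBdef, mem_cells] at hx'
    exact absurd (hx.symm.trans hx') (ne_of_lt hil)
  let lab : Finset (Cell a b) → Lab a b n := fun C x =>
    if x ∈ A ∪ B then (if x ∈ C then i else l) else w x
  have l1 : ∀ (C : Finset (Cell a b)) (x : Cell a b), x ∈ A ∪ B → x ∈ C → lab C x = i := by
    intro C x hx hC
    change (if x ∈ A ∪ B then (if x ∈ C then i else l) else w x) = i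
    rw [if_pos hx, if_pos hC]
  have l2 : ∀ (C : Finset (Cell a b)) (x : Cell a b), x ∈ A ∪ B → x ∉ C → lab C x = l := by
    intro C x hx hC
    change (if x ∈ A ∪ B then (if x ∈ C then i else l) else w x) = l
    rw [if_pos hx, if_neg hC]
  have l3 : ∀ (C : Finset (Cell a b)) (x : Cell a b), x ∉ A ∪ B → lab C x = w x := by
    intro C x hx
    change (if x ∈ A ∪ B then (if x ∈ C then i else l) else w x) = w x
    rw [if_neg hx]
  -- the shear relations
  have hrel : ∀ C : Finset (Cell a b), C ⊆ A ∪ B → d < C.card →
      ∑ D ∈ C.powersetCard d, c (lab D) = 0 := by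
    intro C hC hd
    have h1 := hc.shear i l hil (lab C) (C.card - d) (by omega)
    have h2 : cells (lab C) i = C := by
      ext x
      rw [mem_cells]
      by_cases hx : x ∈ A ∪ B
      · by_cases hxC : x ∈ C
        · rw [l1 C x hx hxC]
          simp [hxC]
        · have : l ≠ i := (ne_of_lt hil).symm
          rw [l2 C x hx hxC]
          simp [hxC, this]
      · have hxC : x ∉ C := fun h => hx (hC h)
        have hxA : x ∉ A := fun h => hx (mem_union_left _ h)
        have hw : w x ≠ i := by
          intro h
          exact hxA (by rw [hAdef, mem_cells]; exact h)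
        rw [l3 C x hx]
        simp [hxC, hw]
    rw [h2] at h1
    rw [← h1]
    refine Finset.sum_bij' (fun D _ => C \ D) (fun T _ => C \ T) ?_ ?_ ?_ ?_ ?_
    · intro D hD
      rw [mem_powersetCard] at hD ⊢
      refine ⟨sdiff_subset, ?_⟩
      rw [card_sdiff_of_subset hD.1, hD.2]
    · intro T hT
      rw [mem_powersetCard] at hT ⊢
      refine ⟨sdiff_subset, ?_⟩
      rw [card_sdiff_of_subset hT.1, hT.2]
      omega
    · intro D hD
      rw [mem_powersetCard] at hD
      exact Finset.sdiff_sdiff_eq_self hD.1
    · intro T hT
      rw [mem_powersetCard] at hT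
      exact Finset.sdiff_sdiff_eq_self hT.1
    · intro D hD
      rw [mem_powersetCard] at hD
      congr 1
      funext x
      by_cases hx : x ∈ A ∪ B
      · by_cases hxD : x ∈ D
        · rw [l1 D x hx hxD, relab, if_neg (by rw [mem_sdiff]; exact fun h => h.2 hxD),
            l1 C x hx (hD.1 hxD)]
        · by_cases hxC : x ∈ C
          · rw [l2 D x hx hxD, relab, if_pos (by rw [mem_sdiff]; exact ⟨hxC, hxD⟩)]
          · rw [l2 D x hx hxD, relab, if_neg (by rw [mem_sdiff]; exact fun h => hxC h.1),
              l2 C x hx hxC]
      · have hxC : x ∉ C := fun h => hx (hC h)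
        rw [l3 D x hx, relab, if_neg (by rw [mem_sdiff]; exact fun h => hxC h.1), l3 C x hx]
  -- the inclusion-exclusion
  let h : Finset (Cell a b) → R := fun Y =>
    ∑ D ∈ ((A ∪ B).powersetCard d).filter (fun D => D ∩ A = Y), c (lab D)
  have hsum : ∀ X ⊆ A, ∑ Y ∈ X.powerset, h Y = ∑ D ∈ (B ∪ X).powersetCard d, c (lab D) := by
    intro X hX
    have h1 : (B ∪ X).powersetCard d =
        X.powerset.biUnion (fun Y => ((A ∪ B).powersetCard d).filter (fun D => D ∩ A = Y)) := by
      ext D
      rw [mem_powersetCard, mem_biUnion]
      constructor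
      · rintro ⟨hD1, hD2⟩
        refine ⟨D ∩ A, ?_, ?_⟩
        · rw [mem_powerset]
          intro x hx
          rw [mem_inter] at hx
          rcases mem_union.1 (hD1 hx.1) with hxB | hxX
          · exact absurd hxB (Finset.disjoint_left.1 hAB hx.2)
          · exact hxX
        · rw [mem_filter, mem_powersetCard]
          refine ⟨⟨fun x hx => ?_, hD2⟩, rfl⟩
          rcases mem_union.1 (hD1 hx) with hxB | hxX
          · exact mem_union_right _ hxB
          · exact mem_union_left _ (hX hxX)
      · rintro ⟨Y, hY, hD⟩
        rw [mem_powerset] at hY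
        rw [mem_filter, mem_powersetCard] at hD
        refine ⟨fun x hx => ?_, hD.1.2⟩
        rcases mem_union.1 (hD.1.1 hx) with hxA | hxB
        · apply mem_union_right
          apply hY
          rw [← hD.2, mem_inter]
          exact ⟨hx, hxA⟩
        · exact mem_union_left _ hxB
    rw [h1, Finset.sum_biUnion]
    intro Y _ Y' _ hYY'
    rw [Function.onFun, Finset.disjoint_left]
    intro D hD hD'
    rw [mem_filter] at hD hD'
    exact hYY' (hD.2.symm.trans hD'.2)
  have hempty : h ∅ = c (lab B) := by
    have h1 := hsum ∅ (empty_subset _)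
    rw [Finset.powerset_empty, Finset.sum_singleton, Finset.union_empty] at h1
    rw [h1, ← hB, Finset.powersetCard_self, Finset.sum_singleton]
  have hzero : ∀ X ⊆ A, X ≠ ∅ → ∑ Y ∈ X.powerset, h Y = 0 := by
    intro X hX hne
    rw [hsum X hX]
    apply hrel
    · exact union_subset subset_union_right (hX.trans subset_union_left)
    · rw [Finset.card_union_of_disjoint (hAB.symm.mono_right hX), hB]
      have := Finset.card_pos.2 (Finset.nonempty_iff_ne_empty.2 hne)
      omega
  have hind : ∀ m : ℕ, ∀ Y ⊆ A, Y.card = m → h Y = (-1) ^ m * h ∅ := by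
    intro m
    induction m using Nat.strong_induction_on with
    | _ m ih =>
      intro Y hY hm
      by_cases hne : Y = ∅
      · subst hne
        rw [Finset.card_empty] at hm
        rw [← hm, pow_zero, one_mul]
      · have h1 := hzero Y hY hne
        rw [← Finset.add_sum_erase _ _ (Finset.mem_powerset_self Y)] at h1
        have h2 : ∑ Z ∈ Y.powerset.erase Y, h Z = ∑ Z ∈ Y.powerset.erase Y,
            (-1 : R) ^ Z.card * h ∅ := by
          apply Finset.sum_congr rfl
          intro Z hZ
          rw [mem_erase, mem_powerset] at hZ
          have hlt : Z.card < m := by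
            rw [← hm]
            exact Finset.card_lt_card (lt_of_le_of_ne hZ.2 hZ.1)
          exact ih _ hlt Z (hZ.2.trans hY) rfl
        have h3 : ∑ Z ∈ Y.powerset, (-1 : R) ^ Z.card = 0 := by
          have h4 := Finset.sum_powerset_neg_one_pow_card_of_nonempty
            (Finset.nonempty_iff_ne_empty.2 hne)
          have h5 := congrArg (Int.cast : ℤ → R) h4
          push_cast at h5
          exact h5
        rw [← Finset.add_sum_erase _ _ (Finset.mem_powerset_self Y)] at h3
        rw [h2, ← Finset.sum_mul] at h1
        rw [hm] at h3
        linear_combination h1 - (h ∅) * h3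
  have hfin : h A = c (lab A) := by
    have h1 : ((A ∪ B).powersetCard d).filter (fun D => D ∩ A = A) = {A} := by
      ext D
      rw [mem_filter, mem_powersetCard, mem_singleton]
      constructor
      · rintro ⟨⟨-, hD⟩, hDA⟩
        have h2 : A ⊆ D := Finset.inter_eq_right.1 hDA
        exact (Finset.eq_of_subset_of_card_le h2 (by rw [hD, hA])).symm
      · rintro rfl
        exact ⟨⟨subset_union_left, hA⟩, Finset.inter_self _⟩
    change ∑ D ∈ _, c (lab D) = _
    rw [h1, Finset.sum_singleton]
  have hlabA : lab A = w := by
    funext x
    by_cases hx : x ∈ A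
    · have h1 : w x = i := by rw [hAdef, mem_cells] at hx; exact hx
      rw [l1 A x (mem_union_left _ hx) hx, h1]
    · by_cases hx' : x ∈ B
      · have h1 : w x = l := by rw [hBdef, mem_cells] at hx'; exact hx'
        rw [l2 A x (mem_union_right _ hx') hx, h1]
      · rw [l3 A x (by rw [mem_union]; exact fun h => h.elim hx hx')]
  have hlabB : lab B = fun x => Equiv.swap i l (w x) := by
    funext x
    by_cases hx : x ∈ A
    · have h1 : w x = i := by rw [hAdef, mem_cells] at hx; exact hx
      have h2 : x ∉ B := Finset.disjoint_left.1 hAB hx
      rw [l2 B x (mem_union_left _ hx) h2, h1, Equiv.swap_apply_left]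
    · by_cases hx' : x ∈ B
      · have h1 : w x = l := by rw [hBdef, mem_cells] at hx'; exact hx'
        rw [l1 B x (mem_union_right _ hx') hx', h1, Equiv.swap_apply_right]
      · have h1 : w x ≠ i := fun h => hx (by rw [hAdef, mem_cells]; exact h)
        have h2 : w x ≠ l := fun h => hx' (by rw [hBdef, mem_cells]; exact h)
        rw [l3 B x (by rw [mem_union]; exact fun h => h.elim hx hx'),
          Equiv.swap_apply_of_ne_of_ne h1 h2]
  have h1 := hind d A (Finset.Subset.refl _) hA
  rw [hfin, hlabA, hempty, hlabB] at h1
  rw [h1, ← mul_assoc, ← mul_pow]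
  simp

omit [CommRing R] in
/-- Invariance under swapping free cells implies `PP`. -/
lemma PP_of_swap {lam : Fin a → ℕ} {c : Lab a b a → R} {i : ℕ}
    (h : ∀ w : Lab a b a, Wt lam w → Cls i w → ∀ x y : Cell a b, i ≤ (w x : ℕ) → i ≤ (w y : ℕ) →
      c (sw w x y) = c w) : PP lam c i := by
  classical
  have main : ∀ d : ℕ, ∀ w w' : Lab a b a,
      (Finset.univ.filter (fun z : Cell a b => w z ≠ w' z)).card = d →
      Wt lam w → Wt lam w' → Cls i w → Same i w w' → c w = c w' := by
    intro d
    induction d using Nat.strong_induction_on with
    | _ d ih =>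
      intro w w' hd hw hw' hcl hs
      by_cases hex : ∃ x, w x ≠ w' x
      · obtain ⟨x, hx⟩ := hex
        have hx1 : i ≤ (w x : ℕ) := by
          by_contra hlt
          exact hx (hs x (Or.inl (by omega)))
        have hx2 : i ≤ (w' x : ℕ) := by
          by_contra hlt
          exact hx (hs x (Or.inr (by omega)))
        obtain ⟨y, hy1, hy2⟩ : ∃ y, w y = w' x ∧ w' y ≠ w' x := by
          by_contra hno
          push Not at hno
          have hsub : cells w (w' x) ⊆ cells w' (w' x) := by
            intro y hy
            rw [mem_cells] at hy ⊢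
            exact hno y hy
          have heq := Finset.eq_of_subset_of_card_le hsub (by rw [hw, hw'])
          have h1 : x ∈ cells w (w' x) := by
            rw [heq, mem_cells]
          rw [mem_cells] at h1
          exact hx h1
        have hy3 : i ≤ (w y : ℕ) := by rw [hy1]; exact hx2
        have hxr : i ≤ (x.1 : ℕ) := by
          by_contra hlt
          have := hcl x (by omega)
          omega
        have hyr : i ≤ (y.1 : ℕ) := by
          by_contra hlt
          have := hcl y (by omega)
          omega
        have hxy : y ≠ x := by
          rintro rfl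
          exact hy2 rfl
        have hs' : Same i (sw w x y) w' := by
          intro z hz
          by_cases hzx : z = x
          · subst hzx
            rw [sw_left, hy1]
          · by_cases hzy : z = y
            · subst hzy
              rw [sw_right] at hz
              exfalso
              rcases hz with hz | hz
              · omega
              · have := hs z (Or.inr hz)
                apply hy2
                rw [← this, hy1]
            · rw [sw_other w hzx hzy] at hz ⊢
              exact hs z hz
        rw [← h w hw hcl x y hx1 hy3]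
        refine ih _ ?_ (sw w x y) w' rfl (hw.sw x y) hw' (hcl.sw hxr hyr) hs'
        rw [← hd]
        apply Finset.card_lt_card
        rw [Finset.ssubset_iff_of_subset]
        · refine ⟨x, by simp [hx], ?_⟩
          rw [Finset.mem_filter, sw_left, hy1]
          rintro ⟨-, h1⟩
          exact h1 rfl
        · intro z hz
          rw [Finset.mem_filter] at hz ⊢
          refine ⟨mem_univ _, ?_⟩
          by_cases hzx : z = x
          · rw [hzx]; exact hx
          · by_cases hzy : z = y
            · rw [hzy, hy1]
              exact Ne.symm hy2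
            · rw [sw_other w hzx hzy] at hz
              exact hz.2
      · push Not at hex
        rw [show w = w' from funext hex]
  intro w w' hw hw' hcl _ hs
  exact main _ w w' rfl hw hw' hcl hs

end Vale.Agent.P181.ModP
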