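import Vale.Agent.P181.R2.H24.RowR

/-!
Row R without a condition on the weight of the last letter.
-/

set_option autoImplicit false

namespace Vale.Agent.P181.ModP

open Finset

variable {a b : ℕ} {R : Type*} [CommRing R]

omit [CommRing R] in
/-- Connecting labellings by swaps. -/
lemma conn {lam : Fin a → ℕ} {c : Lab a b a → R} (w' : Lab a b a) (hw' : Wt lam w')
    (G : Lab a b a → Prop)
    (step : ∀ (w : Lab a b a) (x y : Cell a b), Wt lam w → G w → w x ≠ w' x → w y = w' x →
      w' y ≠ w' x → c (sw w x y) = c w ∧ G (sw w x y)) :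
    ∀ w : Lab a b a, Wt lam w → G w → c w = c w' := by
  classical
  have main : ∀ d : ℕ, ∀ w : Lab a b a,
      (Finset.univ.filter (fun z : Cell a b => w z ≠ w' z)).card = d →
      Wt lam w → G w → c w = c w' := by
    intro d
    induction d using Nat.strong_induction_on with
    | _ d ih =>
      intro w hd hw hG
      by_cases hex : ∃ x, w x ≠ w' x
      · obtain ⟨x, hx⟩ := hex
        obtain ⟨y, hy1, hy2⟩ : ∃ y, w y = w' x ∧ w' y ≠ w' x := by
          by_contra hno
          push Not at hno
          have hsub : cells w (w' x) ⊆ cells w' (w' x) := by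
            intro y hy
            rw [mem_cells] at hy ⊢
            exact hno y hy
          have heq := Finset.eq_of_subset_of_card_le hsub (by rw [hw, hw'])
          have h1 : x ∈ cells w (w' x) := by
            rw [heq, mem_cells]
          rw [mem_cells] at h1
          exact hx h1
        obtain ⟨h1, h2⟩ := step w x y hw hG hx hy1 hy2
        rw [← h1]
        refine ih _ ?_ (sw w x y) rfl (hw.sw x y) h2
        rw [← hd]
        apply Finset.card_lt_card
        rw [Finset.ssubset_iff_of_subset]
        · refine ⟨x, by simp [hx], ?_⟩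
          rw [Finset.mem_filter, sw_left, hy1]
          rintro ⟨-, h1⟩
          exact h1 rfl
        · intro z hz
          rw [Finset.mem_filter] at hz ⊢
          refine ⟨mem_univ _, ?_⟩
          by_cases hzx : z = x
          · rw [hzx]; exact hx
          · by_cases hzy : z = y
            · rw [hzy, hy1]
              exact Ne.symm hy2
            · rw [sw_other w hzx hzy] at hz
              exact hz.2
      · push Not at hex
        rw [show w = w' from funext hex]
  intro w hw hG
  exact main _ w rfl hw hG

/-- If all cells with letter `i` are in the rows of `x` and `y`, they can be swapped. -/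
lemma key_two {lam : Fin a → ℕ} {c : Lab a b a → R} (hc : Sol lam c)
    (hu : ∀ N : ℕ, N < b → ∀ r : R, (1 + (N : R)) * r = 0 → r = 0) (hb : (b : R) + 1 = 0)
    {li : Fin a} (hlam : lam li = b) (v : Lab a b a) (hv : Wt lam v) (x y : Cell a b)
    (hxy : x.1 ≠ y.1) (hvx : li < v x) (hvy : v y = li)
    (hcells : ∀ z, v z = li → z.1 = x.1 ∨ z.1 = y.1) : c (sw v x y) = c v := by
  classical
  have e1 := hc.shear1 v (i := li) (x := x) hvx
  rw [← Finset.sum_filter_add_sum_filter_not (cells v li) (fun z => z.1 = x.1)] at e1
  have h3 : ∑ z ∈ (cells v li).filter (fun z => z.1 = x.1), c (sw v x z) =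
      (((cells v li).filter (fun z => z.1 = x.1)).card : R) * c v := by
    rw [Finset.sum_congr rfl (fun z hz => hc.swap_row v (Finset.mem_filter.1 hz).2.symm),
      Finset.sum_const, nsmul_eq_mul]
  have h4 : ∑ z ∈ (cells v li).filter (fun z => ¬ z.1 = x.1), c (sw v x z) =
      (((cells v li).filter (fun z => ¬ z.1 = x.1)).card : R) * c (sw v x y) := by
    rw [← nsmul_eq_mul, ← Finset.sum_const]
    apply Finset.sum_congr rfl
    intro z hz
    obtain ⟨hz1, hz2⟩ := Finset.mem_filter.1 hz
    rw [mem_cells] at hz1
    have hzy : y.1 = z.1 := ((hcells z hz1).resolve_left hz2).symm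
    rw [← hc.swap_row (sw v x y) hzy]
    congr 1
    have hyx : y ≠ x := fun h => hxy (by rw [h])
    have hzx : z ≠ x := fun h => hz2 (by rw [h])
    funext t
    by_cases htx : t = x
    · subst htx
      rw [sw_left, sw_other _ hyx.symm hzx.symm, sw_left, hz1, hvy]
    · by_cases htz : t = z
      · subst htz
        rw [sw_right, sw_right]
        by_cases hty : t = y
        · subst hty
          rw [sw_right]
        · rw [sw_right]
      · by_cases hty : t = y
        · subst hty
          rw [sw_other v htx htz, sw_left]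
          rw [sw_other v hzx (Ne.symm htz), hz1, hvy]
        · rw [sw_other v htx htz, sw_other _ hty htz, sw_other v htx hty]
  have h5 : ((cells v li).filter (fun z => z.1 = x.1)).card +
      ((cells v li).filter (fun z => ¬ z.1 = x.1)).card = b := by
    rw [Finset.card_filter_add_card_filter_not, hv, hlam]
  have h6 : ((cells v li).filter (fun z => z.1 = x.1)).card < b := by
    apply row_card_lt x
    · rw [Finset.mem_filter, mem_cells]
      rintro ⟨h, -⟩
      exact absurd h (ne_of_gt hvx)
    · intro z hz
      exact (Finset.mem_filter.1 hz).2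
  rw [h3, h4] at e1
  have h7 : (((cells v li).filter (fun z => z.1 = x.1)).card : R) +
      (((cells v li).filter (fun z => ¬ z.1 = x.1)).card : R) = b := by
    rw [← Nat.cast_add, h5]
  have h8 := hu _ h6 (c (sw v x y) - c v) (by
    linear_combination (c (sw v x y)) * h7 + c (sw v x y) * hb - e1)
  exact sub_eq_zero.1 h8

/-- Three rows, two letters. -/
lemma PP_three {lam : Fin a → ℕ} {c : Lab a b a → R} (hc : Sol lam c)
    (hu : ∀ N : ℕ, N < b → ∀ r : R, (1 + (N : R)) * r = 0 → r = 0) (hb : (b : R) + 1 = 0)
    {i : ℕ} (hi : i + 3 = a) (hl0 : lam ⟨i, by omega⟩ = b) (hl1 : lam ⟨i + 1, by omega⟩ = b)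
    (hlast : lam ⟨i + 2, by omega⟩ = 0)
    (hex : ∀ w : Lab a b a, Wt lam w → c (exch ⟨i, by omega⟩ ⟨i + 1, by omega⟩ w) = c w) :
    PP lam c i := by
  classical
  have hno : ∀ w : Lab a b a, Wt lam w → ∀ z, (w z : ℕ) ≤ i + 1 := by
    intro w hw z
    have h1 := (w z).2
    by_contra hlt
    have h2 : w z = ⟨i + 2, by omega⟩ := Fin.ext (by simp; omega)
    have h3 : z ∈ cells w ⟨i + 2, by omega⟩ := mem_cells.2 h2
    have h4 := hw ⟨i + 2, by omega⟩
    rw [hlast, Finset.card_eq_zero] at h4
    rw [h4] at h3
    exact absurd h3 (Finset.notMem_empty _)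
  have hrow : ∀ v : Lab a b a, Cls i v → ∀ z : Cell a b, i ≤ (v z : ℕ) → i ≤ (z.1 : ℕ) := by
    intro v hv z hz
    by_contra hlt
    have := hv z (by omega)
    omega
  -- no letter `i` in row `i`
  have A : ∀ w : Lab a b a, Wt lam w → Cls i w → (∀ z, (z.1 : ℕ) = i → (w z : ℕ) ≠ i) →
      ∀ x y : Cell a b, x.1 ≠ y.1 → (x.1 : ℕ) ≠ i → (y.1 : ℕ) ≠ i → (w x : ℕ) = i + 1 →
      (w y : ℕ) = i → c (sw w x y) = c w := by
    intro w hw hcl hr x y hxy hxi hyi hx hy
    refine key_two hc hu hb (li := ⟨i, by omega⟩) hl0 w hw x y hxy ?_ (Fin.ext hy) ?_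
    · rw [Fin.lt_def, hx]
      exact Nat.lt_succ_self i
    · intro z hz
      have hzi : (w z : ℕ) = i := by rw [hz]
      have h1 := hrow w hcl z (by omega)
      have h2 := hrow w hcl x (by omega)
      have h3 := hrow w hcl y (by omega)
      have h4 : (z.1 : ℕ) ≠ i := fun h => hr z h hzi
      have h5 := z.1.2
      have h6 := x.1.2
      have h7 := y.1.2
      have h8 : (x.1 : ℕ) ≠ (y.1 : ℕ) := fun h => hxy (Fin.ext h)
      rcases eq_or_ne (z.1 : ℕ) (x.1 : ℕ) with h | h
      · exact Or.inl (Fin.ext h)
      · exact Or.inr (Fin.ext (by omega))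
  -- no letter `i + 1` in row `i`
  have B0 : ∀ w : Lab a b a, Wt lam w → Cls i w → (∀ z, (z.1 : ℕ) = i → (w z : ℕ) ≤ i) →
      ∀ x y : Cell a b, x.1 ≠ y.1 → (x.1 : ℕ) ≠ i → (y.1 : ℕ) ≠ i → (w x : ℕ) = i →
      (w y : ℕ) = i + 1 → c (sw w x y) = c w := by
    intro w hw hcl hr x y hxy hxi hyi hx hy
    set e := exch (a := a) (b := b) ⟨i, by omega⟩ ⟨i + 1, by omega⟩ with he
    have h1 : sw (e w) x y = e (sw w x y) := rfl
    have ex1 : ∀ z, (w z : ℕ) = i → (e w z : ℕ) = i + 1 := by
      intro z hz
      rw [he, exch, show w z = ⟨i, by omega⟩ from Fin.ext hz, Equiv.swap_apply_left]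
    have ex2 : ∀ z, (w z : ℕ) = i + 1 → (e w z : ℕ) = i := by
      intro z hz
      rw [he, exch, show w z = ⟨i + 1, by omega⟩ from Fin.ext hz, Equiv.swap_apply_right]
    have h2 := A (e w) (hw.exch (hl0.trans hl1.symm)) (fun z hz =>
      (exch_lt_iff (m := i) (le_refl i) (Nat.le_succ i) w z).2 (hcl z hz)) (by
        intro z hz hzi
        have h3 := hr z hz
        rcases Nat.lt_or_eq_of_le h3 with h4 | h4
        · have h5 := (exch_lt_iff (i := ⟨i, by omega⟩) (l := ⟨i + 1, by omega⟩) (m := i)
            (le_refl i) (Nat.le_succ i) w z).2 h4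
          rw [← he] at h5
          omega
        · have := ex1 z h4
          omega) x y hxy hxi hyi (ex1 x hx) (ex2 y hy)
    rw [h1, he, hex _ (hw.sw x y), hex _ hw] at h2
    exact h2
  have B : ∀ w : Lab a b a, Wt lam w → Cls i w → (∀ z, (z.1 : ℕ) = i → (w z : ℕ) ≤ i) →
      ∀ x y : Cell a b, (x.1 : ℕ) ≠ i → (y.1 : ℕ) ≠ i → i ≤ (w x : ℕ) → i ≤ (w y : ℕ) →
      w x ≠ w y → c (sw w x y) = c w := by
    intro w hw hcl hr x y hxi hyi hx hy hne
    by_cases hxy : x.1 = y.1
    · exact hc.swap_row w hxy
    have h1 := hno w hw x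
    have h2 := hno w hw y
    have h3 : (w x : ℕ) ≠ (w y : ℕ) := fun h => hne (Fin.ext h)
    by_cases h4 : (w x : ℕ) = i
    · exact B0 w hw hcl hr x y hxy hxi hyi h4 (by omega)
    · have h5 : sw w x y = sw w y x := by
        funext t
        rw [sw, sw, Equiv.swap_comm]
      rw [h5]
      exact B0 w hw hcl hr y x (Ne.symm hxy) hyi hxi (by omega) (by omega)
  -- both rows `i` full
  have C : ∀ w w' : Lab a b a, Wt lam w → Wt lam w' → Cls i w → Cls i w' → Same i w w' →
      (∀ z, (z.1 : ℕ) = i → (w z : ℕ) ≤ i) → (∀ z, (z.1 : ℕ) = i → (w' z : ℕ) ≤ i) →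
      c w = c w' := by
    intro w w' hw hw' hcl hcl' hs hr hr'
    refine conn w' hw' (fun v => Cls i v ∧ Same i v w' ∧ ∀ z, (z.1 : ℕ) = i → (v z : ℕ) ≤ i)
      ?_ w hw ⟨hcl, hs, hr⟩
    rintro v x y hv ⟨hcv, hsv, hrv⟩ hx hy1 hy2
    have hx1 : i ≤ (v x : ℕ) := by
      by_contra hlt
      exact hx (hsv x (Or.inl (by omega)))
    have hx2 : i ≤ (w' x : ℕ) := by
      by_contra hlt
      exact hx (hsv x (Or.inr (by omega)))
    have hy3 : i ≤ (v y : ℕ) := by rw [hy1]; exact hx2
    have hxi : (x.1 : ℕ) ≠ i := by
      intro h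
      apply hx
      apply Fin.ext
      have h1 := hrv x h
      have h2 := hr' x h
      omega
    have hyi : (y.1 : ℕ) ≠ i := by
      intro h
      apply hy2
      have h1 := hrv y h
      have h2 := hr' y h
      by_cases h3 : (w' y : ℕ) < i
      · have := hsv y (Or.inr h3)
        rw [← this, hy1]
      · rw [← hy1]
        apply Fin.ext
        omega
    have hxr := hrow v hcv x hx1
    have hyr := hrow v hcv y hy3
    refine ⟨B v hv hcv hrv x y hxi hyi hx1 hy3 (by rw [hy1]; exact hx),
      hcv.sw hxr hyr, ?_, ?_⟩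
    · intro z hz
      by_cases hzx : z = x
      · subst hzx
        rw [sw_left, hy1]
      · by_cases hzy : z = y
        · subst hzy
          rw [sw_right] at hz
          exfalso
          rcases hz with hz | hz
          · omega
          · have := hsv z (Or.inr hz)
            apply hy2
            rw [← this, hy1]
        · rw [sw_other v hzx hzy] at hz ⊢
          exact hsv z hz
    · intro z hz
      have hzx : z ≠ x := by
        rintro rfl
        exact hxi hz
      have hzy : z ≠ y := by
        rintro rfl
        exact hyi hz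
      rw [sw_other v hzx hzy]
      exact hrv z hz
  -- induction on the number of cells of row `i` which are not full
  let dd : Lab a b a → ℕ := fun w =>
    (Finset.univ.filter (fun x : Cell a b => (x.1 : ℕ) = i ∧ i < (w x : ℕ))).card
  have step : ∀ d : ℕ, (∀ w w' : Lab a b a, dd w + dd w' < d → Wt lam w → Wt lam w' →
      Cls i w → Cls i w' → Same i w w' → c w = c w') →
      ∀ w w' : Lab a b a, dd w + dd w' = d → Wt lam w → Wt lam w' → Cls i w → Cls i w' →
      Same i w w' → (∃ x : Cell a b, (x.1 : ℕ) = i ∧ i < (w x : ℕ)) → c w = c w' := by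
    intro d ih w w' hd hw hw' hcl hcl' hs hexx
    obtain ⟨x, hx1, hx2⟩ := hexx
    let li : Fin a := ⟨i, by omega⟩
    have e1 := hc.shear1 w (i := li) (x := x) hx2
    rw [← Finset.sum_filter_add_sum_filter_not (cells w li) (fun y => y.1 = x.1)] at e1
    have h3 : ∑ y ∈ (cells w li).filter (fun y => y.1 = x.1), c (sw w x y) =
        (((cells w li).filter (fun y => y.1 = x.1)).card : R) * c w := by
      rw [Finset.sum_congr rfl (fun y hy => hc.swap_row w (Finset.mem_filter.1 hy).2.symm),
        Finset.sum_const, nsmul_eq_mul]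
    have h4 : ∑ y ∈ (cells w li).filter (fun y => ¬ y.1 = x.1), c (sw w x y) =
        (((cells w li).filter (fun y => ¬ y.1 = x.1)).card : R) * c w' := by
      rw [← nsmul_eq_mul, ← Finset.sum_const]
      apply Finset.sum_congr rfl
      intro y hy
      obtain ⟨hy1, hy2⟩ := Finset.mem_filter.1 hy
      rw [mem_cells] at hy1
      have hyi : (w y : ℕ) = i := by rw [hy1]
      have hyr : i ≤ (y.1 : ℕ) := hrow w hcl y (by omega)
      have hyne : (y.1 : ℕ) ≠ i := by
        intro h
        apply hy2
        apply Fin.ext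
        omega
      refine ih (sw w x y) w' ?_ (hw.sw x y) hw' (hcl.sw (by omega) hyr) hcl' ?_
      · rw [← hd]
        apply Nat.add_lt_add_right
        apply Finset.card_lt_card
        rw [Finset.ssubset_iff_of_subset]
        · refine ⟨x, by simp [hx1, hx2], ?_⟩
          rw [Finset.mem_filter]
          rintro ⟨-, -, h⟩
          rw [sw_left] at h
          omega
        · intro z hz
          rw [Finset.mem_filter] at hz ⊢
          obtain ⟨-, hz1, hz2⟩ := hz
          have hzx : z ≠ x := by
            rintro rfl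
            rw [sw_left] at hz2
            omega
          have hzy : z ≠ y := by
            rintro rfl
            exact hyne hz1
          rw [sw_other w hzx hzy] at hz2
          exact ⟨mem_univ _, hz1, hz2⟩
      · intro z hz
        by_cases hzx : z = x
        · subst hzx
          exfalso
          rw [sw_left] at hz
          rcases hz with hz | hz
          · omega
          · have := hs z (Or.inr hz)
            omega
        · by_cases hzy : z = y
          · subst hzy
            exfalso
            rw [sw_right] at hz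
            rcases hz with hz | hz
            · omega
            · have := hs z (Or.inr hz)
              omega
          · rw [sw_other w hzx hzy] at hz ⊢
            exact hs z hz
    have h5 : ((cells w li).filter (fun y => y.1 = x.1)).card +
        ((cells w li).filter (fun y => ¬ y.1 = x.1)).card = b := by
      rw [Finset.card_filter_add_card_filter_not, hw, hl0]
    have h6 : ((cells w li).filter (fun y => y.1 = x.1)).card < b := by
      apply row_card_lt x
      · rw [Finset.mem_filter, mem_cells]
        rintro ⟨h, -⟩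
        have : (w x : ℕ) = i := by rw [h]
        omega
      · intro y hy
        exact (Finset.mem_filter.1 hy).2
    rw [h3, h4] at e1
    have h7 : (((cells w li).filter (fun y => y.1 = x.1)).card : R) +
        (((cells w li).filter (fun y => ¬ y.1 = x.1)).card : R) = b := by
      rw [← Nat.cast_add, h5]
    have h8 := hu _ h6 (c w - c w') (by
      linear_combination e1 - (c w') * h7 - (c w') * hb)
    exact sub_eq_zero.1 h8
  have main : ∀ d : ℕ, ∀ w w' : Lab a b a, dd w + dd w' = d → Wt lam w → Wt lam w' →
      Cls i w → Cls i w' → Same i w w' → c w = c w' := by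
    intro d
    induction d using Nat.strong_induction_on with
    | _ d ih =>
      intro w w' hd hw hw' hcl hcl' hs
      have hs' : Same i w' w := fun z hz => (hs z hz.symm).symm
      by_cases h1 : ∃ x : Cell a b, (x.1 : ℕ) = i ∧ i < (w x : ℕ)
      · exact step d (fun v v' hv => ih _ hv v v' rfl) w w' hd hw hw' hcl hcl' hs h1
      · by_cases h2 : ∃ x : Cell a b, (x.1 : ℕ) = i ∧ i < (w' x : ℕ)
        · exact (step d (fun v v' hv => ih _ hv v v' rfl) w' w (by omega) hw' hw hcl' hcl
            hs' h2).symm
        · push Not at h1 h2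
          exact C w w' hw hw' hcl hcl' hs h1 h2
  intro w w' hw hw' hcl hcl' hs
  exact main _ w w' rfl hw hw' hcl hcl' hs

end Vale.Agent.P181.ModP
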